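import Crest.Agent.Helper68.SW3.Margins
import Crest.Agent.Helper78.S0453.Fibre3

/-!
# S0453 (helper68): the inverse half of the fibre bijection, in helper78's names

`Crest.Agent.Helper78.S0453.rowT` is definitionally `row`; this file restates `ofTable_mem` for
helper78's `TT`, `rowT` and `Tab c r`.
-/

set_option autoImplicit false

namespace Crest.Agent.Helper68.SW3

open Finset Crest.SwitchChain Crest.Agent.Helper65.Switch

variable {n : ℕ}

lemma Tset_eq_TT (t : Fin 3 → Fin n) : Tset t = Crest.Agent.Helper78.S0453.TT t := rfl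

lemma row_eq_rowT (t : Fin 3 → Fin n) (G : Finset (Edge n)) (i : Fin 3) :
    row t G i = Crest.Agent.Helper78.S0453.rowT t G i := rfl

/-- **Inverse half of the fibre bijection** (helper78's names): every table with the margins of
the class of `G₀` is the table of a member of the class. -/
theorem ofTable_mem_Tab {t : Fin 3 → Fin n} (ht : Function.Injective t) {d : Fin n → ℕ}
    {G₀ : Finset (Edge n)} (hG₀ : G₀ ∈ realizations d) {x : Fin 3 → Finset (Fin n)}
    (hx : x ∈ Crest.Agent.Helper78.S0453.Tab
      (fun w => (univ.filter fun i => w ∈ Crest.Agent.Helper78.S0453.rowT t G₀ i).card)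
      (fun i => (Crest.Agent.Helper78.S0453.rowT t G₀ i).card)) :
    ofTable t G₀ x ∈ cls d (Crest.Agent.Helper78.S0453.TT t) G₀ ∧
      Crest.Agent.Helper78.S0453.rowT t (ofTable t G₀ x) = x := by
  rw [Crest.Agent.Helper78.S0453.mem_Tab] at hx
  have h := ofTable_mem ht hG₀ (x := x) (fun i => hx.2 i) (fun w => hx.1 w)
  exact ⟨h.1, funext h.2⟩

end Crest.Agent.Helper68.SW3
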