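import Crest.Agent.Helper65.Switch.Classes

/-!
# S0453 (helper68): the `~_T`-fibre of a vertex triple as a 3-row table

`t : Fin 3 → Fin n` injective names the triple, `Tset t` its vertex set.  `row t G i` is row `i`
of the table of `G`: the neighbours of `t i` outside the triple, plus the *virtual column*
(stored at the index `t 0`, which is never a real column) iff the pair opposite to `t i` is a
non-edge.  `ofTable t G₀ x` rewires `G₀` along a table `x`.
-/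

set_option autoImplicit false

namespace Crest.Agent.Helper68.SW3

open Finset Crest.SwitchChain Crest.Agent.Helper65.Switch

variable {n : ℕ}

/-- The vertex set of the triple. -/
def Tset (t : Fin 3 → Fin n) : Finset (Fin n) := Finset.univ.image t

lemma mem_Tset {t : Fin 3 → Fin n} {v : Fin n} : v ∈ Tset t ↔ ∃ i, t i = v := by
  unfold Tset; simp

lemma t_mem_Tset (t : Fin 3 → Fin n) (i : Fin 3) : t i ∈ Tset t := mem_Tset.2 ⟨i, rfl⟩

lemma fin3_cases (i j : Fin 3) : j = i ∨ j = i + 1 ∨ j = i + 2 := by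
  revert i j; decide

lemma fin3_ne1 (i : Fin 3) : i ≠ i + 1 := by revert i; decide
lemma fin3_ne2 (i : Fin 3) : i ≠ i + 2 := by revert i; decide
lemma fin3_ne12 (i : Fin 3) : i + 1 ≠ i + 2 := by revert i; decide
lemma fin3_add11 (i : Fin 3) : i + 1 + 1 = i + 2 := by revert i; decide
lemma fin3_add12 (i : Fin 3) : i + 1 + 2 = i := by revert i; decide
lemma fin3_add21 (i : Fin 3) : i + 2 + 1 = i := by revert i; decide
lemma fin3_add22 (i : Fin 3) : i + 2 + 2 = i + 1 := by revert i; decide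
lemma fin3_inj1 : ∀ i j : Fin 3, i + 1 = j + 1 → i = j := by decide
lemma fin3_absurd : ∀ i j : Fin 3, i + 1 = j + 2 → i + 2 ≠ j + 1 := by decide

open Classical in
/-- Row `i` of the table of `G`. -/
noncomputable def row (t : Fin 3 → Fin n) (G : Finset (Edge n)) (i : Fin 3) : Finset (Fin n) :=
  (nb G (t i) \ Tset t) ∪ (if adj G (t (i + 1)) (t (i + 2)) then ∅ else {t 0})

lemma mem_row {t : Fin 3 → Fin n} {G : Finset (Edge n)} {i : Fin 3} {w : Fin n} :
    w ∈ row t G i ↔ (adj G (t i) w ∧ w ∉ Tset t) ∨ (¬ adj G (t (i + 1)) (t (i + 2)) ∧ w = t 0) := by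
  classical
  unfold row
  rw [Finset.mem_union, Finset.mem_sdiff, mem_nb]
  by_cases h : adj G (t (i + 1)) (t (i + 2))
  · rw [if_pos h]; simp [h]
  · rw [if_neg h]; simp [h]

lemma mem_row_off {t : Fin 3 → Fin n} {G : Finset (Edge n)} {i : Fin 3} {w : Fin n}
    (hw : w ∉ Tset t) : w ∈ row t G i ↔ adj G (t i) w := by
  rw [mem_row]
  constructor
  · rintro (h | h)
    · exact h.1
    · exact absurd (h.2 ▸ t_mem_Tset t 0) hw
  · intro h; exact Or.inl ⟨h, hw⟩

lemma t0_mem_row {t : Fin 3 → Fin n} {G : Finset (Edge n)} {i : Fin 3} :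
    t 0 ∈ row t G i ↔ ¬ adj G (t (i + 1)) (t (i + 2)) := by
  rw [mem_row]
  constructor
  · rintro (h | h)
    · exact absurd (t_mem_Tset t 0) h.2
    · exact h.1
  · intro h; exact Or.inr ⟨h, rfl⟩

lemma row_sub {t : Fin 3 → Fin n} {G : Finset (Edge n)} {i : Fin 3} {w : Fin n}
    (hw : w ∈ row t G i) : w ∉ Tset t ∨ w = t 0 := by
  rw [mem_row] at hw
  rcases hw with h | h
  · exact Or.inl h.2
  · exact Or.inr h.2

/-- The adjacency relation of the rewired graph. -/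
def tabAdj (t : Fin 3 → Fin n) (G₀ : Finset (Edge n)) (x : Fin 3 → Finset (Fin n))
    (u v : Fin n) : Prop :=
  (u ∉ Tset t ∧ v ∉ Tset t ∧ adj G₀ u v) ∨
  (∃ i, u = t i ∧ v ∉ Tset t ∧ v ∈ x i) ∨
  (∃ i, v = t i ∧ u ∉ Tset t ∧ u ∈ x i) ∨
  (∃ i, ((u = t (i + 1) ∧ v = t (i + 2)) ∨ (u = t (i + 2) ∧ v = t (i + 1))) ∧ t 0 ∉ x i)

lemma tabAdj_symm {t : Fin 3 → Fin n} {G₀ : Finset (Edge n)} {x : Fin 3 → Finset (Fin n)}
    (u v : Fin n) (h : tabAdj t G₀ x u v) : tabAdj t G₀ x v u := by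
  rcases h with ⟨h1, h2, h3⟩ | ⟨i, h1, h2, h3⟩ | ⟨i, h1, h2, h3⟩ | ⟨i, h1, h2⟩
  · exact Or.inl ⟨h2, h1, adj_comm.1 h3⟩
  · exact Or.inr (Or.inr (Or.inl ⟨i, h1, h2, h3⟩))
  · exact Or.inr (Or.inl ⟨i, h1, h2, h3⟩)
  · exact Or.inr (Or.inr (Or.inr ⟨i, h1.symm.imp And.symm And.symm, h2⟩))

/-- The graph `G₀` rewired along the table `x`. -/
noncomputable def ofTable (t : Fin 3 → Fin n) (G₀ : Finset (Edge n))
    (x : Fin 3 → Finset (Fin n)) : Finset (Edge n) := ofAdj (tabAdj t G₀ x)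

lemma adj_ofTable {t : Fin 3 → Fin n} {G₀ : Finset (Edge n)} {x : Fin 3 → Finset (Fin n)}
    {u v : Fin n} : adj (ofTable t G₀ x) u v ↔ u ≠ v ∧ tabAdj t G₀ x u v :=
  adj_ofAdj tabAdj_symm

lemma adj_ofTable_off {t : Fin 3 → Fin n} {G₀ : Finset (Edge n)} {x : Fin 3 → Finset (Fin n)}
    {u v : Fin n} (hu : u ∉ Tset t) (hv : v ∉ Tset t) :
    adj (ofTable t G₀ x) u v ↔ adj G₀ u v := by
  rw [adj_ofTable]
  constructor
  · rintro ⟨-, ⟨-, -, h3⟩ | ⟨i, h1, -, -⟩ | ⟨i, h1, -, -⟩ | ⟨i, h1 | h1, -⟩⟩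
    · exact h3
    · exact absurd (h1 ▸ t_mem_Tset t i) hu
    · exact absurd (h1 ▸ t_mem_Tset t i) hv
    · exact absurd (h1.1 ▸ t_mem_Tset t _) hu
    · exact absurd (h1.1 ▸ t_mem_Tset t _) hu
  · intro h
    exact ⟨h.ne, Or.inl ⟨hu, hv, h⟩⟩

lemma adj_ofTable_row {t : Fin 3 → Fin n} (ht : Function.Injective t) {G₀ : Finset (Edge n)}
    {x : Fin 3 → Finset (Fin n)} {i : Fin 3} {v : Fin n} (hv : v ∉ Tset t) :
    adj (ofTable t G₀ x) (t i) v ↔ v ∈ x i := by
  rw [adj_ofTable]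
  constructor
  · rintro ⟨-, ⟨h1, -, -⟩ | ⟨j, h1, -, h3⟩ | ⟨j, h1, -, -⟩ | ⟨j, h1 | h1, -⟩⟩
    · exact absurd (t_mem_Tset t i) h1
    · rw [ht h1]; exact h3
    · exact absurd (h1 ▸ t_mem_Tset t j) hv
    · exact absurd (h1.2 ▸ t_mem_Tset t _) hv
    · exact absurd (h1.2 ▸ t_mem_Tset t _) hv
  · intro h
    refine ⟨?_, Or.inr (Or.inl ⟨i, rfl, hv, h⟩)⟩
    rintro rfl
    exact hv (t_mem_Tset t i)

lemma adj_ofTable_int {t : Fin 3 → Fin n} (ht : Function.Injective t) {G₀ : Finset (Edge n)}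
    {x : Fin 3 → Finset (Fin n)} {i : Fin 3} :
    adj (ofTable t G₀ x) (t (i + 1)) (t (i + 2)) ↔ t 0 ∉ x i := by
  rw [adj_ofTable]
  constructor
  · rintro ⟨-, ⟨h1, -, -⟩ | ⟨j, -, h2, -⟩ | ⟨j, -, h2, -⟩ | ⟨j, h1 | h1, h2⟩⟩
    · exact absurd (t_mem_Tset t _) h1
    · exact absurd (t_mem_Tset t _) h2
    · exact absurd (t_mem_Tset t _) h2
    · rw [fin3_inj1 i j (ht h1.1)]; exact h2
    · exact absurd (ht h1.2) (fin3_absurd i j (ht h1.1))
  · intro h
    refine ⟨fun hh => fin3_ne12 i (ht hh), Or.inr (Or.inr (Or.inr ⟨i, Or.inl ⟨rfl, rfl⟩, h⟩))⟩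

/-- The table of the rewired graph is the given table. -/
lemma row_ofTable {t : Fin 3 → Fin n} (ht : Function.Injective t) (G₀ : Finset (Edge n))
    {x : Fin 3 → Finset (Fin n)} (hx : ∀ i, ∀ w ∈ x i, w ∉ Tset t ∨ w = t 0) (i : Fin 3) :
    row t (ofTable t G₀ x) i = x i := by
  ext w
  rw [mem_row, adj_ofTable_int ht]
  constructor
  · rintro (⟨h1, h2⟩ | ⟨h1, h2⟩)
    · exact (adj_ofTable_row ht h2).1 h1
    · rw [h2]; exact not_not.1 h1
  · intro hw
    rcases hx i w hw with h | h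
    · exact Or.inl ⟨(adj_ofTable_row ht h).2 hw, h⟩
    · exact Or.inr ⟨not_not.2 (h ▸ hw), h⟩

lemma offU_ofTable (t : Fin 3 → Fin n) (G₀ : Finset (Edge n)) (x : Fin 3 → Finset (Fin n)) :
    offU (Tset t) (ofTable t G₀ x) = offU (Tset t) G₀ :=
  offU_eq_iff.2 fun _ _ hu hv => adj_ofTable_off hu hv

/-- adjacency inside the triple, read off the virtual column. -/
lemma adj_int_iff {t : Fin 3 → Fin n} {G : Finset (Edge n)} (i : Fin 3) :
    adj G (t (i + 1)) (t (i + 2)) ↔ t 0 ∉ row t G i := by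
  rw [t0_mem_row, not_not]

/-- A graph is determined by its part off the triple and its table. -/
lemma eq_of_row_eq {t : Fin 3 → Fin n} {G G' : Finset (Edge n)}
    (h1 : offU (Tset t) G = offU (Tset t) G') (h2 : ∀ i, row t G i = row t G' i) : G = G' := by
  have hint : ∀ i, adj G (t (i + 1)) (t (i + 2)) ↔ adj G' (t (i + 1)) (t (i + 2)) := by
    intro i
    rw [adj_int_iff, adj_int_iff, h2 i]
  have hrow : ∀ i v, v ∉ Tset t → (adj G (t i) v ↔ adj G' (t i) v) := by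
    intro i v hv
    rw [← mem_row_off (G := G) hv, ← mem_row_off (G := G') hv, h2 i]
  refine ext_adj fun u v => ?_
  by_cases hu : u ∈ Tset t
  · obtain ⟨i, rfl⟩ := mem_Tset.1 hu
    by_cases hv : v ∈ Tset t
    · obtain ⟨j, rfl⟩ := mem_Tset.1 hv
      rcases fin3_cases i j with rfl | rfl | rfl
      · exact ⟨fun h => absurd h not_adj_self, fun h => absurd h not_adj_self⟩
      · have := hint (i + 2)
        rw [fin3_add21, fin3_add22] at this
        exact this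
      · have := hint (i + 1)
        rw [fin3_add11, fin3_add12] at this
        rw [adj_comm, this, adj_comm]
    · exact hrow i v hv
  · by_cases hv : v ∈ Tset t
    · obtain ⟨j, rfl⟩ := mem_Tset.1 hv
      rw [adj_comm, hrow j u hu, adj_comm]
    · exact (offU_eq_iff.1 h1 u v hu hv)

end Crest.Agent.Helper68.SW3
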