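import Crest.Agent.Helper68.SW3.Fibre

/-!
# S0453 (helper68): margins of the table of a graph, degrees of the rewired graph

* `card_nb_off`, `card_nb_T` : degree of a vertex outside / inside the triple in terms of the table;
* `row_margins` : the margins of `row t G` are constant on the `~_T`-class;
* `ofTable_mem` : a table with the right margins gives a member of the class, with that table.
-/

set_option autoImplicit false

namespace Crest.Agent.Helper68.SW3

open Finset Crest.SwitchChain Crest.Agent.Helper65.Switch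

variable {n : ℕ}

/-- Column sum of a 3-row table. -/
def colsum (x : Fin 3 → Finset (Fin n)) (w : Fin n) : ℕ :=
  (univ.filter (fun i : Fin 3 => w ∈ x i)).card

lemma fin3_sum (f : Fin 3 → ℕ) (i : Fin 3) : ∑ j, f j = f i + f (i + 1) + f (i + 2) := by
  rw [Fin.sum_univ_three]
  have h : ∀ i : Fin 3, (i = 0 ∧ i + 1 = 1 ∧ i + 2 = 2) ∨ (i = 1 ∧ i + 1 = 2 ∧ i + 2 = 0) ∨
      (i = 2 ∧ i + 1 = 0 ∧ i + 2 = 1) := by decide
  rcases h i with ⟨h0, h1, h2⟩ | ⟨h0, h1, h2⟩ | ⟨h0, h1, h2⟩ <;> rw [h1, h2, h0] <;> omega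

/-- degree of a vertex outside the triple. -/
lemma card_nb_off {t : Fin 3 → Fin n} (ht : Function.Injective t) (G : Finset (Edge n))
    {w : Fin n} (hw : w ∉ Tset t) :
    (nb G w).card = (nb G w \ Tset t).card + colsum (row t G) w := by
  classical
  have h1 := Finset.card_sdiff_add_card_inter (nb G w) (Tset t)
  have h2 : nb G w ∩ Tset t = (univ.filter (fun i : Fin 3 => w ∈ row t G i)).image t := by
    ext v
    rw [Finset.mem_inter, mem_nb, Finset.mem_image]
    constructor
    · rintro ⟨h, hv⟩
      obtain ⟨i, rfl⟩ := mem_Tset.1 hv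
      exact ⟨i, Finset.mem_filter.2 ⟨Finset.mem_univ _, (mem_row_off hw).2 (adj_comm.1 h)⟩, rfl⟩
    · rintro ⟨i, hi, rfl⟩
      rw [Finset.mem_filter] at hi
      exact ⟨adj_comm.1 ((mem_row_off hw).1 hi.2), t_mem_Tset t i⟩
  rw [h2, Finset.card_image_of_injective _ ht] at h1
  unfold colsum
  omega

/-- degree of a vertex of the triple. -/
lemma card_nb_T {t : Fin 3 → Fin n} (ht : Function.Injective t) (G : Finset (Edge n))
    (i : Fin 3) :
    (nb G (t i)).card + colsum (row t G) (t 0) = (row t G i).card + 2 := by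
  classical
  set e : Fin 3 → ℕ := fun j => if adj G (t (j + 1)) (t (j + 2)) then 1 else 0 with he
  set ne : Fin 3 → ℕ := fun j => if adj G (t (j + 1)) (t (j + 2)) then 0 else 1 with hne
  have hE : ∀ j, e j + ne j = 1 := by
    intro j
    show (if adj G (t (j + 1)) (t (j + 2)) then 1 else 0) +
      (if adj G (t (j + 1)) (t (j + 2)) then 0 else 1) = 1
    split_ifs <;> rfl
  have h1 := Finset.card_sdiff_add_card_inter (nb G (t i)) (Tset t)
  have h2 : (row t G i).card = (nb G (t i) \ Tset t).card + ne i := by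
    unfold row
    rw [Finset.card_union_of_disjoint]
    · congr 1
      show _ = if adj G (t (i + 1)) (t (i + 2)) then 0 else 1
      split_ifs <;> simp
    · rw [Finset.disjoint_left]
      intro v hv hv'
      rw [Finset.mem_sdiff] at hv
      split_ifs at hv' with h
      · simp at hv'
      · rw [Finset.mem_singleton] at hv'
        exact hv.2 (hv' ▸ t_mem_Tset t 0)
  have a1 : adj G (t i) (t (i + 1)) ↔ adj G (t (i + 2 + 1)) (t (i + 2 + 2)) := by
    rw [fin3_add21, fin3_add22]
  have a2 : adj G (t i) (t (i + 2)) ↔ adj G (t (i + 1 + 1)) (t (i + 1 + 2)) := by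
    rw [fin3_add11, fin3_add12, adj_comm]
  have h3 : nb G (t i) ∩ Tset t =
      (if adj G (t i) (t (i + 1)) then {t (i + 1)} else ∅) ∪
        (if adj G (t i) (t (i + 2)) then {t (i + 2)} else ∅) := by
    ext v
    rw [Finset.mem_inter, mem_nb, Finset.mem_union]
    constructor
    · rintro ⟨h, hv⟩
      obtain ⟨j, rfl⟩ := mem_Tset.1 hv
      rcases fin3_cases i j with rfl | rfl | rfl
      · exact absurd h not_adj_self
      · left; rw [if_pos h]; exact Finset.mem_singleton_self _
      · right; rw [if_pos h]; exact Finset.mem_singleton_self _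
    · rintro (h | h)
      · split_ifs at h with h'
        · rw [Finset.mem_singleton] at h; subst h; exact ⟨h', t_mem_Tset t _⟩
        · simp at h
      · split_ifs at h with h'
        · rw [Finset.mem_singleton] at h; subst h; exact ⟨h', t_mem_Tset t _⟩
        · simp at h
  have h4 : (nb G (t i) ∩ Tset t).card = e (i + 2) + e (i + 1) := by
    rw [h3, Finset.card_union_of_disjoint]
    · congr 1
      · show _ = if adj G (t (i + 2 + 1)) (t (i + 2 + 2)) then 1 else 0
        rw [← a1]
        split_ifs <;> simp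
      · show _ = if adj G (t (i + 1 + 1)) (t (i + 1 + 2)) then 1 else 0
        rw [← a2]
        split_ifs <;> simp
    · rw [Finset.disjoint_left]
      intro v hv hv'
      split_ifs at hv with h
      · split_ifs at hv' with h'
        · rw [Finset.mem_singleton] at hv hv'
          exact fin3_ne12 i (ht (hv ▸ hv'))
        · simp at hv'
      · simp at hv
  have h5 : colsum (row t G) (t 0) = ∑ j, ne j := by
    unfold colsum
    rw [Finset.card_filter]
    refine Finset.sum_congr rfl fun j _ => ?_
    show (if t 0 ∈ row t G j then 1 else 0) = if adj G (t (j + 1)) (t (j + 2)) then 0 else 1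
    by_cases h : adj G (t (j + 1)) (t (j + 2))
    · rw [if_pos h, if_neg (fun hh => (t0_mem_row.1 hh) h)]
    · rw [if_neg h, if_pos (t0_mem_row.2 h)]
  rw [h5, fin3_sum ne i, h2]
  have := hE (i + 1)
  have := hE (i + 2)
  omega

/-- double counting. -/
lemma sum_card_eq_sum_colsum (x : Fin 3 → Finset (Fin n)) :
    ∑ i, (x i).card = ∑ w, colsum x w := by
  classical
  have h1 : ∀ i, (x i).card = ∑ w, if w ∈ x i then 1 else 0 := by
    intro i
    rw [Finset.sum_ite_mem, Finset.univ_inter, Finset.sum_const, smul_eq_mul, mul_one]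
  have h2 : ∀ w, colsum x w = ∑ i, if w ∈ x i then 1 else 0 := by
    intro w
    unfold colsum
    rw [Finset.card_filter]
  rw [Finset.sum_congr rfl fun i _ => h1 i, Finset.sum_congr rfl fun w _ => h2 w, Finset.sum_comm]

lemma colsum_T_eq_zero {t : Fin 3 → Fin n} (G : Finset (Edge n)) {w : Fin n}
    (hw : w ∈ Tset t) (hw0 : w ≠ t 0) : colsum (row t G) w = 0 := by
  unfold colsum
  rw [Finset.card_eq_zero, Finset.filter_eq_empty_iff]
  intro i _ h
  rcases row_sub h with h' | h'
  · exact h' hw
  · exact hw0 h'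

/-- total count: `∑_i d(t i) + 2 v = ∑_{w ∉ T} c_w + 6`. -/
lemma total_count {t : Fin 3 → Fin n} (ht : Function.Injective t) (G : Finset (Edge n)) :
    ∑ i, (nb G (t i)).card + 2 * colsum (row t G) (t 0) =
      ∑ w ∈ univ \ Tset t, colsum (row t G) w + 6 := by
  classical
  have h1 : ∑ i, ((nb G (t i)).card + colsum (row t G) (t 0)) = ∑ i, ((row t G i).card + 2) :=
    Finset.sum_congr rfl fun i _ => card_nb_T ht G i
  rw [Finset.sum_add_distrib, Finset.sum_add_distrib, Finset.sum_const, Finset.sum_const,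
    Finset.card_univ, Fintype.card_fin, sum_card_eq_sum_colsum (row t G)] at h1
  have h2 : ∑ w, colsum (row t G) w =
      ∑ w ∈ univ \ Tset t, colsum (row t G) w + colsum (row t G) (t 0) := by
    rw [← Finset.sum_sdiff (Finset.subset_univ (Tset t))]
    congr 1
    refine Finset.sum_eq_single (t 0) ?_ ?_
    · intro w hw hw0
      exact colsum_T_eq_zero G hw hw0
    · intro h; exact absurd (t_mem_Tset t 0) h
  rw [h2] at h1
  simp only [smul_eq_mul] at h1
  omega

lemma nb_sdiff_eq {t : Fin 3 → Fin n} {G G' : Finset (Edge n)}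
    (h : offU (Tset t) G = offU (Tset t) G') {w : Fin n} (hw : w ∉ Tset t) :
    nb G w \ Tset t = nb G' w \ Tset t := by
  ext v
  rw [Finset.mem_sdiff, Finset.mem_sdiff, mem_nb, mem_nb]
  constructor
  · rintro ⟨h1, h2⟩; exact ⟨(offU_eq_iff.1 h w v hw h2).1 h1, h2⟩
  · rintro ⟨h1, h2⟩; exact ⟨(offU_eq_iff.1 h w v hw h2).2 h1, h2⟩

lemma card_nb_of_mem {d : Fin n → ℕ} {G : Finset (Edge n)} (hG : G ∈ realizations d)
    (v : Fin n) : (nb G v).card = d v := by
  rw [← deg_eq_card_nb]; exact mem_realizations.1 hG v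

/-- **The margins are constant on the `~_T`-class.** -/
theorem row_margins {t : Fin 3 → Fin n} (ht : Function.Injective t) {d : Fin n → ℕ}
    {G₀ G : Finset (Edge n)} (hG₀ : G₀ ∈ realizations d) (hG : G ∈ cls d (Tset t) G₀) :
    (∀ i, (row t G i).card = (row t G₀ i).card) ∧
      ∀ w, colsum (row t G) w = colsum (row t G₀) w := by
  classical
  obtain ⟨hGr, hoff⟩ := mem_cls.1 hG
  have hcoff : ∀ w, w ∉ Tset t → colsum (row t G) w = colsum (row t G₀) w := by
    intro w hw
    have e1 := card_nb_off ht G hw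
    have e2 := card_nb_off ht G₀ hw
    rw [card_nb_of_mem hGr, nb_sdiff_eq hoff hw] at e1
    rw [card_nb_of_mem hG₀] at e2
    omega
  have hv : colsum (row t G) (t 0) = colsum (row t G₀) (t 0) := by
    have e1 := total_count ht G
    have e2 := total_count ht G₀
    have e3 : ∑ i, (nb G (t i)).card = ∑ i, (nb G₀ (t i)).card :=
      Finset.sum_congr rfl fun i _ => by rw [card_nb_of_mem hGr, card_nb_of_mem hG₀]
    have e4 : ∑ w ∈ univ \ Tset t, colsum (row t G) w =
        ∑ w ∈ univ \ Tset t, colsum (row t G₀) w :=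
      Finset.sum_congr rfl fun w hw => hcoff w (Finset.mem_sdiff.1 hw).2
    omega
  refine ⟨fun i => ?_, fun w => ?_⟩
  · have e1 := card_nb_T ht G i
    have e2 := card_nb_T ht G₀ i
    rw [card_nb_of_mem hGr] at e1
    rw [card_nb_of_mem hG₀] at e2
    omega
  · by_cases hw : w ∈ Tset t
    · by_cases hw0 : w = t 0
      · rw [hw0]; exact hv
      · rw [colsum_T_eq_zero G hw hw0, colsum_T_eq_zero G₀ hw hw0]
    · exact hcoff w hw

/-- **A table with the margins of the class is the table of a member of the class.** -/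
theorem ofTable_mem {t : Fin 3 → Fin n} (ht : Function.Injective t) {d : Fin n → ℕ}
    {G₀ : Finset (Edge n)} (hG₀ : G₀ ∈ realizations d) {x : Fin 3 → Finset (Fin n)}
    (hr : ∀ i, (x i).card = (row t G₀ i).card)
    (hc : ∀ w, colsum x w = colsum (row t G₀) w) :
    ofTable t G₀ x ∈ cls d (Tset t) G₀ ∧ ∀ i, row t (ofTable t G₀ x) i = x i := by
  classical
  have hx : ∀ i, ∀ w ∈ x i, w ∉ Tset t ∨ w = t 0 := by
    intro i w hw
    by_contra hcon
    rw [not_or, not_not] at hcon
    have h0 := colsum_T_eq_zero G₀ hcon.1 hcon.2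
    rw [← hc w] at h0
    unfold colsum at h0
    rw [Finset.card_eq_zero, Finset.filter_eq_empty_iff] at h0
    exact h0 (Finset.mem_univ i) hw
  have hrow := row_ofTable ht G₀ hx
  have hfun : row t (ofTable t G₀ x) = x := funext hrow
  refine ⟨mem_cls.2 ⟨?_, offU_ofTable t G₀ x⟩, hrow⟩
  rw [mem_realizations]
  intro v
  rw [deg_eq_card_nb]
  by_cases hv : v ∈ Tset t
  · obtain ⟨i, rfl⟩ := mem_Tset.1 hv
    have e1 := card_nb_T ht (ofTable t G₀ x) i
    have e2 := card_nb_T ht G₀ i
    rw [hfun, hc (t 0), hr i] at e1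
    rw [card_nb_of_mem hG₀] at e2
    omega
  · have e1 := card_nb_off ht (ofTable t G₀ x) hv
    have e2 := card_nb_off ht G₀ hv
    rw [hfun, hc v, nb_sdiff_eq (offU_ofTable t G₀ x) hv] at e1
    rw [card_nb_of_mem hG₀] at e2
    omega

end Crest.Agent.Helper68.SW3
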