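import Crest.Agent.Helper68.SW3.Avg
import Crest.Agent.Helper68.SW3.Bridge78
import Crest.Agent.Helper56.SW.TablesTransport
import Crest.Agent.Helper77.S0453.L3Final

/-!
# S0453 (helper68): the three-body inequality (3B) on the realizations of a degree vector

`threeBody_Om` : `⟨f, (1 - Q_T) f⟩ ≤ ∑_{pairs U ⊂ T} ⟨f, (1 - Q_U) f⟩` for a vertex triple `T`;
`threeBody_Qavg` : the same in the shape consumed by `Helper26.SW.result_of_3B_DP_T2` (`h3B`).

Inputs: the abstract reduction (`Avg.lean`), the fibre bijection (`Fibre.lean`, `Margins.lean`,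
helper78's `Fibre3.lean`), the table inequality (`Helper77.S0453.l3Colouring56`) transported by
`Helper56.SW.L3_of_bij`.
-/

set_option autoImplicit false

namespace Crest.Agent.Helper68.SW3

open Finset Crest.SwitchChain Crest.Agent.Helper65.Switch

variable {n : ℕ}

lemma pair_subset_Tset (t : Fin 3 → Fin n) (i : Fin 3) :
    ({t (i + 1), t (i + 2)} : Finset (Fin n)) ⊆ Tset t := by
  intro v hv
  rw [Finset.mem_insert, Finset.mem_singleton] at hv
  rcases hv with rfl | rfl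
  · exact t_mem_Tset t _
  · exact t_mem_Tset t _

lemma mem_filter_univ_inst {α : Type*} [Fintype α] (p : α → Prop) (inst : DecidablePred p)
    (x : α) : x ∈ @Finset.filter α p inst Finset.univ ↔ p x := by
  simp

lemma mem_Tab56 {r : Fin 3 → ℕ} {c : Fin n → ℕ} {x : Fin 3 → Finset (Fin n)} :
    x ∈ Crest.Agent.Helper56.SW.Tab r c ↔
      (∀ i, (x i).card = r i) ∧ ∀ w, (univ.filter (fun i => w ∈ x i)).card = c w := by
  unfold Crest.Agent.Helper56.SW.Tab
  exact mem_filter_univ_inst _ _ x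

/-- (L3) on a `~_T`-fibre of realizations. -/
theorem L3_fibre {t : Fin 3 → Fin n} (ht : Function.Injective t) (d : Fin n → ℕ)
    {G₀ : Finset (Edge n)} (hG₀ : G₀ ∈ realizations d) (g : Fin 3 → Finset (Edge n) → ℝ)
    (hg : ∀ i, ∀ G ∈ cls d (Tset t) G₀, ∀ G' ∈ cls d (Tset t) G₀,
      offU {t (i + 1), t (i + 2)} G = offU {t (i + 1), t (i + 2)} G' → g i G = g i G')
    (h0 : ∀ i, ∑ G ∈ cls d (Tset t) G₀, g i G = 0) :
    ∑ G ∈ cls d (Tset t) G₀, (∑ i, g i G) ^ 2 ≤
      2 * ∑ G ∈ cls d (Tset t) G₀, ∑ i, (g i G) ^ 2 := by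
  classical
  refine Crest.Agent.Helper56.SW.L3_of_bij Crest.Agent.Helper77.S0453.l3Colouring56
    (cls d (Tset t) G₀) (row t) (fun i => (row t G₀ i).card) (fun w => colsum (row t G₀) w)
    ?_ ?_ ?_ g ?_ h0
  · intro G hG
    have hm := row_margins ht hG₀ hG
    exact mem_Tab56.2 ⟨hm.1, hm.2⟩
  · intro G hG G' hG' h
    exact eq_of_row_eq ((mem_cls.1 hG).2.trans (mem_cls.1 hG').2.symm) (fun i => congrFun h i)
  · intro x hx
    rw [mem_Tab56] at hx
    have hm := ofTable_mem ht hG₀ (x := x) hx.1 hx.2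
    exact ⟨ofTable t G₀ x, hm.1, funext hm.2⟩
  · intro i G hG G' hG' h
    refine hg i G hG G' hG' ?_
    exact (Crest.Agent.Helper78.S0453.off_pair_iff ht (mem_cls.1 hG).1 (mem_cls.1 hG').1
      ((mem_cls.1 hG).2.trans (mem_cls.1 hG').2.symm) i).2 h

/-- **(3B) on `realizations d`**, projection form. -/
theorem threeBody_Om (d : Fin n → ℕ) {t : Fin 3 → Fin n} (ht : Function.Injective t)
    (f : Finset (Edge n) → ℝ) :
    ∑ G ∈ realizations d, f G * Rop d (Tset t) f G ≤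
      ∑ G ∈ realizations d, f G * ∑ i : Fin 3, Rop d {t (i + 1), t (i + 2)} f G := by
  refine threeBody_proj_abstract (realizations d) (offU (Tset t))
    (fun i => offU {t (i + 1), t (i + 2)}) ?_ ?_ f
  · intro i x y h
    exact offU_mono (pair_subset_Tset t i) h
  · intro G₀ hG₀ g hg h0
    exact L3_fibre ht d hG₀ g hg h0

/-- **(3B) on `realizations d`** in the shape of `Helper26.SW.result_of_3B_DP_T2` (`h3B`). -/
theorem threeBody_Qavg (d : Fin n → ℕ) (a b c : Fin n) (hab : a ≠ b) (hac : a ≠ c) (hbc : b ≠ c)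
    (f : Finset (Edge n) → ℝ) :
    ∑ G ∈ realizations d,
        f G * (Qavg d {a, b} f G + Qavg d {a, c} f G + Qavg d {b, c} f G)
      ≤ 2 * ∑ G ∈ realizations d, f G ^ 2
        + ∑ G ∈ realizations d, f G * Qavg d {a, b, c} f G := by
  classical
  set t : Fin 3 → Fin n := ![a, b, c] with htdef
  have ht : Function.Injective t := by
    have h01 : t 0 ≠ t 1 := hab
    have h02 : t 0 ≠ t 2 := hac
    have h12 : t 1 ≠ t 2 := hbc
    intro i j h
    by_contra hij
    have key : ∀ i j : Fin 3, i ≠ j → (i = 0 ∧ j = 1) ∨ (i = 0 ∧ j = 2) ∨ (i = 1 ∧ j = 2) ∨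
        (i = 1 ∧ j = 0) ∨ (i = 2 ∧ j = 0) ∨ (i = 2 ∧ j = 1) := by decide
    rcases key i j hij with ⟨rfl, rfl⟩ | ⟨rfl, rfl⟩ | ⟨rfl, rfl⟩ | ⟨rfl, rfl⟩ | ⟨rfl, rfl⟩ |
      ⟨rfl, rfl⟩
    exacts [h01 h, h02 h, h12 h, h01 h.symm, h02 h.symm, h12 h.symm]
  have hT : Tset t = {a, b, c} := by
    ext v
    rw [mem_Tset]
    simp only [Finset.mem_insert, Finset.mem_singleton]
    constructor
    · rintro ⟨i, rfl⟩
      have key : ∀ i : Fin 3, i = 0 ∨ i = 1 ∨ i = 2 := by decide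
      rcases key i with rfl | rfl | rfl
      exacts [Or.inl rfl, Or.inr (Or.inl rfl), Or.inr (Or.inr rfl)]
    · rintro (rfl | rfl | rfl)
      exacts [⟨0, rfl⟩, ⟨1, rfl⟩, ⟨2, rfl⟩]
  have h := threeBody_Om d ht f
  rw [hT] at h
  have e0 : ({t (0 + 1), t (0 + 2)} : Finset (Fin n)) = {b, c} := rfl
  have e1 : ({t (1 + 1), t (1 + 2)} : Finset (Fin n)) = {a, c} := by
    show ({c, a} : Finset (Fin n)) = {a, c}
    exact Finset.pair_comm c a
  have e2 : ({t (2 + 1), t (2 + 2)} : Finset (Fin n)) = {a, b} := rfl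
  have hsum : ∀ G, ∑ i : Fin 3, Rop d {t (i + 1), t (i + 2)} f G =
      Rop d {b, c} f G + Rop d {a, c} f G + Rop d {a, b} f G := by
    intro G
    rw [Fin.sum_univ_three, e0, e1, e2]
  have hL : ∑ G ∈ realizations d, f G * Rop d {a, b, c} f G =
      ∑ G ∈ realizations d, f G ^ 2 - ∑ G ∈ realizations d, f G * Qavg d {a, b, c} f G := by
    rw [← Finset.sum_sub_distrib]
    refine Finset.sum_congr rfl fun G _ => ?_
    rw [Rop_def]; ring
  have hR : ∑ G ∈ realizations d, f G * ∑ i : Fin 3, Rop d {t (i + 1), t (i + 2)} f G =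
      3 * ∑ G ∈ realizations d, f G ^ 2 - ∑ G ∈ realizations d,
        f G * (Qavg d {a, b} f G + Qavg d {a, c} f G + Qavg d {b, c} f G) := by
    rw [Finset.mul_sum, ← Finset.sum_sub_distrib]
    refine Finset.sum_congr rfl fun G _ => ?_
    rw [hsum G, Rop_def, Rop_def, Rop_def]; ring
  rw [hL, hR] at h
  linarith

end Crest.Agent.Helper68.SW3
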